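import Vale.Agent.P333.CE.Zero

/-! Greedy runs on a factor-free family, seen through the first and the last original word of the
current words. -/

namespace Vale.Agent.P333.Link

open Vale.Agent.P333

universe u

variable {α : Type u} [DecidableEq α]

/-- A state: current words with the numbers of their first and last original words. -/
structure Inv (w : ℕ → List α) (st : List (List α × (ℕ × ℕ))) : Prop where
  nd : (st.map (fun e => e.1)).Nodup
  pa : ∀ e ∈ st, w e.2.1 <+: e.1
  sb : ∀ e ∈ st, w e.2.2 <:+ e.1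
  na : ∀ e ∈ st, ∀ f ∈ st, e.1 ≠ f.1 → ¬ w e.2.1 <:+: f.1
  nb : ∀ e ∈ st, ∀ f ∈ st, e.1 ≠ f.1 → ¬ w e.2.2 <:+: f.1

/-- The family of a state. -/
def sfam (st : List (List α × (ℕ × ℕ))) : Finset (List α) := (st.map (fun e => e.1)).toFinset

/-- The total length. -/
def stot (st : List (List α × (ℕ × ℕ))) : ℕ := (st.map (fun e => e.1.length)).sum

variable {w : ℕ → List α} {st : List (List α × (ℕ × ℕ))}

theorem mem_sfam {x : List α} : x ∈ sfam st ↔ ∃ e ∈ st, e.1 = x := by simp [sfam]

theorem Inv.eq_of_word (h : Inv w st) {e f : List α × (ℕ × ℕ)} (he : e ∈ st) (hf : f ∈ st)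
    (hef : e.1 = f.1) : e = f := List.inj_on_of_nodup_map h.nd he hf hef

theorem Inv.first_ne (h : Inv w st) {e f : List α × (ℕ × ℕ)} (he : e ∈ st) (hf : f ∈ st)
    (hef : e.1 ≠ f.1) : e.2.1 ≠ f.2.1 := by
  intro heq
  apply h.na e he f hf hef
  rw [heq]
  exact (h.pa f hf).isInfix

theorem Inv.word_ne (h : Inv w st) {e f : List α × (ℕ × ℕ)} (he : e ∈ st) (hf : f ∈ st)
    (hef : e.2.1 ≠ f.2.1) : e.1 ≠ f.1 := fun heq => hef (by rw [h.eq_of_word he hf heq])

theorem Inv.ov (h : Inv w st) {e f : List α × (ℕ × ℕ)} (he : e ∈ st) (hf : f ∈ st)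
    (hef : e.1 ≠ f.1) {o : List α} (h1 : o <:+ e.1) (h2 : o <+: f.1) :
    o <:+ w e.2.2 ∧ o <+: w f.2.1 := by
  constructor
  · rcases List.suffix_or_suffix_of_suffix h1 (h.sb e he) with h3 | h3
    · exact h3
    · exact absurd (h3.isInfix.trans h2.isInfix) (h.nb e he f hf hef)
  · rcases List.prefix_or_prefix_of_prefix h2 (h.pa f hf) with h3 | h3
    · exact h3
    · exact absurd (h3.isInfix.trans h1.isInfix) (h.na f hf e he (Ne.symm hef))

theorem Inv.perm {st' : List (List α × (ℕ × ℕ))} (h : Inv w st) (hp : st.Perm st') :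
    Inv w st' where
  nd := (hp.map _).nodup_iff.mp h.nd
  pa := fun e he => h.pa e (hp.mem_iff.mpr he)
  sb := fun e he => h.sb e (hp.mem_iff.mpr he)
  na := fun e he f hf => h.na e (hp.mem_iff.mpr he) f (hp.mem_iff.mpr hf)
  nb := fun e he f hf => h.nb e (hp.mem_iff.mpr he) f (hp.mem_iff.mpr hf)

/-- A word that is a factor of the merge, but of none of the two parts, reaches over the
overlap. -/
theorem factor_merge {X Y o v : List α} (h1 : o <:+ X) (h2 : o <+: Y)
    (hv : v <:+: X ++ Y.drop o.length) (hX : ¬ v <:+: X) (hY : ¬ v <:+: Y) :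
    ∃ x1 x2, v = x1 ++ x2 ∧ x2 ≠ [] ∧ x1 <:+ X ∧ o <:+ x1 ∧ o.length < x1.length ∧
      o ++ x2 <+: Y := by
  obtain ⟨Y', rfl⟩ := h2
  rw [List.drop_left] at hv
  rcases infix_append_cases hv with h3 | h3 | ⟨x1, x2, rfl, h4, h5⟩
  · exact absurd h3 hX
  · exact absurd (h3.trans (List.suffix_append _ _).isInfix) hY
  · have hx2 : x2 ≠ [] := by
      rintro rfl
      rw [List.append_nil] at hX
      exact hX h4.isInfix
    have h6 : o ++ x2 <+: o ++ Y' := by
      obtain ⟨r, rfl⟩ := h5
      exact ⟨r, by rw [List.append_assoc]⟩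
    rcases Nat.lt_or_ge o.length x1.length with h7 | h7
    · exact ⟨x1, x2, rfl, hx2, h4, List.suffix_of_suffix_length_le h1 h4 h7.le, h7, h6⟩
    · exfalso
      have h8 : x1 <:+ o := List.suffix_of_suffix_length_le h4 h1 h7
      apply hY
      obtain ⟨l, rfl⟩ := h8
      refine List.IsInfix.trans ?_ h6.isInfix
      exact ⟨l, [], by simp⟩

theorem merge_inv {e f : List α × (ℕ × ℕ)} {rest : List (List α × (ℕ × ℕ))}
    (h : Inv w (e :: f :: rest)) {o : List α} (h1 : o <:+ e.1) (h2 : o <+: f.1)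
    (hmax : ∀ e' ∈ e :: f :: rest, ∀ f' ∈ e :: f :: rest, e'.1 ≠ f'.1 → ∀ o' : List α,
      o' <:+ e'.1 → o' <+: f'.1 → o'.length ≤ o.length) :
    Inv w ((e.1 ++ f.1.drop o.length, (e.2.1, f.2.2)) :: rest) := by
  have hnd := h.nd
  simp only [List.map_cons, List.nodup_cons, List.mem_cons, not_or] at hnd
  have he : e ∈ e :: f :: rest := by simp
  have hf : f ∈ e :: f :: rest := by simp
  have hr : ∀ g ∈ rest, g ∈ e :: f :: rest := fun g hg => by simp [hg]
  have hne : ∀ g ∈ rest, e.1 ≠ g.1 := by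
    intro g hg heq
    exact hnd.1.2 (List.mem_map.mpr ⟨g, hg, heq.symm⟩)
  have hnf : ∀ g ∈ rest, f.1 ≠ g.1 := by
    intro g hg heq
    exact hnd.2.1 (List.mem_map.mpr ⟨g, hg, heq.symm⟩)
  have hZe : e.1 <+: e.1 ++ f.1.drop o.length := List.prefix_append _ _
  have hZf : f.1 <:+ e.1 ++ f.1.drop o.length := by
    obtain ⟨l, hl⟩ := h1
    obtain ⟨r, hr'⟩ := h2
    refine ⟨l, ?_⟩
    rw [← hl, ← hr', List.drop_left, List.append_assoc]
  have key : ∀ v : List α, ∀ g ∈ rest, (v <:+ g.1 ∨ v <+: g.1) → ¬ v <:+: e.1 → ¬ v <:+: f.1 →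
      ¬ v <:+: e.1 ++ f.1.drop o.length := by
    intro v g hg hv hve hvf hcon
    obtain ⟨x1, x2, rfl, hx2, h3, h4, h5, h6⟩ := factor_merge h1 h2 hcon hve hvf
    rcases hv with hv | hv
    · have h7 : o ++ x2 <:+ g.1 := by
        obtain ⟨l, rfl⟩ := h4
        refine List.IsSuffix.trans ?_ hv
        exact ⟨l, by rw [List.append_assoc]⟩
      have h8 := hmax g (hr g hg) f hf (hnf g hg).symm (o ++ x2) h7 h6
      rw [List.length_append] at h8
      have := List.length_pos_of_ne_nil hx2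
      omega
    · have h7 : x1 <+: g.1 := (List.prefix_append _ _).trans hv
      have h8 := hmax e he g (hr g hg) (hne g hg) x1 h3 h7
      omega
  refine ⟨?_, ?_, ?_, ?_, ?_⟩
  · simp only [List.map_cons, List.nodup_cons]
    refine ⟨?_, hnd.2.2⟩
    intro hmem
    obtain ⟨g, hg, hgz⟩ := List.mem_map.mp hmem
    have h3 : w e.2.1 <:+: g.1 := by
      rw [hgz]
      exact ((h.pa e he).trans hZe).isInfix
    exact h.na e he g (hr g hg) (hne g hg) h3
  · intro g hg
    rcases List.mem_cons.mp hg with rfl | hg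
    · exact (h.pa e he).trans hZe
    · exact h.pa g (hr g hg)
  · intro g hg
    rcases List.mem_cons.mp hg with rfl | hg
    · exact (h.sb f hf).trans hZf
    · exact h.sb g (hr g hg)
  · intro g hg g' hg' hgg
    rcases List.mem_cons.mp hg with rfl | hg
    · rcases List.mem_cons.mp hg' with rfl | hg'
      · exact absurd rfl hgg
      · exact h.na e he g' (hr g' hg') (hne g' hg')
    · rcases List.mem_cons.mp hg' with rfl | hg'
      · exact key _ g hg (Or.inr (h.pa g (hr g hg))) (h.na g (hr g hg) e he (hne g hg).symm)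
          (h.na g (hr g hg) f hf (hnf g hg).symm)
      · exact h.na g (hr g hg) g' (hr g' hg') hgg
  · intro g hg g' hg' hgg
    rcases List.mem_cons.mp hg with rfl | hg
    · rcases List.mem_cons.mp hg' with rfl | hg'
      · exact absurd rfl hgg
      · exact h.nb f hf g' (hr g' hg') (hnf g' hg')
    · rcases List.mem_cons.mp hg' with rfl | hg'
      · exact key _ g hg (Or.inl (h.sb g (hr g hg))) (h.nb g (hr g hg) e he (hne g hg).symm)
          (h.nb g (hr g hg) f hf (hnf g hg).symm)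
      · exact h.nb g (hr g hg) g' (hr g' hg') hgg

/-- The family `F` has a state with the given first and last numbers, of total length `N`. -/
def Rep (w : ℕ → List α) (s : List (ℕ × ℕ)) (N : ℕ) (F : Finset (List α)) : Prop :=
  ∃ st : List (List α × (ℕ × ℕ)), Inv w st ∧ sfam st = F ∧ (st.map (fun e => e.2)).Perm s ∧
    stot st = N

theorem Rep.nodup {s : List (ℕ × ℕ)} {N : ℕ} {F : Finset (List α)} (h : Rep w s N F) :
    (s.map (fun p => p.1)).Nodup := by
  obtain ⟨st, hI, -, hp, -⟩ := h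
  rw [← (hp.map _).nodup_iff, List.map_map]
  refine (List.nodup_map_iff_inj_on (List.Nodup.of_map _ hI.nd)).mpr ?_
  intro e he f hf hef
  by_contra hne
  exact hI.first_ne he hf (fun h => hne (hI.eq_of_word he hf h)) hef

theorem exists_perm_cons {β : Type*} {l : List β} {a b : β} (ha : a ∈ l) (hb : b ∈ l)
    (hab : a ≠ b) : ∃ r, l.Perm (a :: b :: r) := by
  have key : ∀ {l : List β} {a : β}, a ∈ l → ∃ r, l.Perm (a :: r) := by
    intro l a h
    obtain ⟨l1, l2, rfl⟩ := List.append_of_mem h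
    exact ⟨l1 ++ l2, List.perm_middle⟩
  obtain ⟨r, hr⟩ := key ha
  have hb' : b ∈ r := by
    rcases List.mem_cons.mp (hr.mem_iff.mp hb) with h | h
    · exact absurd h.symm hab
    · exact h
  obtain ⟨r', hr'⟩ := key hb'
  exact ⟨r', hr.trans (hr'.cons a)⟩

theorem rep_step {s : List (ℕ × ℕ)} {N : ℕ} {F F' : Finset (List α)} (h : Rep w s N F)
    (hs : GreedyStep F F') :
    ∃ (p q : ℕ × ℕ) (rest : List (ℕ × ℕ)) (o : List α), s.Perm (p :: q :: rest) ∧
      p.1 ≠ q.1 ∧ o <:+ w p.2 ∧ o <+: w q.1 ∧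
      (∀ p' ∈ s, ∀ q' ∈ s, p'.1 ≠ q'.1 → ∀ o' : List α, o' <:+ w p'.2 → o' <+: w q'.1 →
        o'.length ≤ o.length) ∧
      ∃ N', N = N' + o.length ∧ Rep w ((p.1, q.2) :: rest) N' F' := by
  obtain ⟨st, hI, rfl, hp, rfl⟩ := h
  obtain ⟨x, hx, y, hy, hxy, o, h1, h2, hmax, rfl⟩ := hs
  obtain ⟨e, he, rfl⟩ := mem_sfam.mp hx
  obtain ⟨f, hf, rfl⟩ := mem_sfam.mp hy
  obtain ⟨rest, hr⟩ := exists_perm_cons he hf (fun h => hxy (by rw [h]))
  have hI2 := hI.perm hr
  have hmax2 : ∀ e' ∈ e :: f :: rest, ∀ f' ∈ e :: f :: rest, e'.1 ≠ f'.1 → ∀ o' : List α,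
      o' <:+ e'.1 → o' <+: f'.1 → o'.length ≤ o.length := by
    intro e' he' f' hf' hne o' h3 h4
    exact hmax _ (mem_sfam.mpr ⟨e', hr.mem_iff.mpr he', rfl⟩) _
      (mem_sfam.mpr ⟨f', hr.mem_iff.mpr hf', rfl⟩) hne o' h3 h4
  have ho := hI.ov he hf hxy h1 h2
  refine ⟨e.2, f.2, rest.map (fun e => e.2), o, ?_, hI.first_ne he hf hxy, ho.1, ho.2, ?_, ?_⟩
  · exact hp.symm.trans (hr.map _)
  · intro p' hp' q' hq' hne o' h3 h4
    obtain ⟨e', he', rfl⟩ := List.mem_map.mp (hp.mem_iff.mpr hp')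
    obtain ⟨f', hf', rfl⟩ := List.mem_map.mp (hp.mem_iff.mpr hq')
    exact hmax _ (mem_sfam.mpr ⟨e', he', rfl⟩) _ (mem_sfam.mpr ⟨f', hf', rfl⟩)
      (hI.word_ne he' hf' hne) o' (h3.trans (hI.sb e' he')) (h4.trans (hI.pa f' hf'))
  · refine ⟨stot ((e.1 ++ f.1.drop o.length, (e.2.1, f.2.2)) :: rest), ?_,
      (e.1 ++ f.1.drop o.length, (e.2.1, f.2.2)) :: rest, merge_inv hI2 h1 h2 hmax2, ?_, ?_, rfl⟩
    · have h3 : stot st = stot (e :: f :: rest) := (hr.map _).sum_eq
      rw [h3]
      have h4 := h2.length_le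
      simp only [stot, List.map_cons, List.sum_cons, List.length_append, List.length_drop]
      omega
    · have hnd := hI2.nd
      simp only [List.map_cons, List.nodup_cons, List.mem_cons, not_or] at hnd
      have h3 : sfam st = sfam (e :: f :: rest) := by
        ext x
        simp only [mem_sfam, hr.mem_iff]
      rw [h3]
      ext x
      simp only [sfam, List.map_cons, List.toFinset_cons, Finset.mem_insert, Finset.mem_erase,
        List.mem_toFinset]
      constructor
      · rintro (h5 | h5)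
        · exact Or.inl h5
        · refine Or.inr ⟨?_, ?_, Or.inr (Or.inr h5)⟩
          · rintro rfl; exact hnd.2.1 h5
          · rintro rfl; exact hnd.1.2 h5
      · rintro (h5 | ⟨h5, h6, h7 | h7 | h7⟩)
        · exact Or.inl h5
        · exact absurd h7 h6
        · exact absurd h7 h5
        · exact Or.inr h7
    · simp

/-- Two different words cannot be left in a family of one word. -/
theorem rep_singleton {s : List (ℕ × ℕ)} {N : ℕ} {G : List α} (h : Rep w s N {G}) :
    N = G.length ∧ s.length = 1 := by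
  obtain ⟨st, hI, hF, hp, rfl⟩ := h
  have h1 : (st.map (fun e => e.1)).toFinset.card = 1 := by
    have : (st.map (fun e => e.1)).toFinset = {G} := hF
    rw [this, Finset.card_singleton]
  rw [List.toFinset_card_of_nodup hI.nd, List.length_map] at h1
  obtain ⟨e, rfl⟩ := List.length_eq_one_iff.mp h1
  have h2 : e.1 = G := by
    have h3 : e.1 ∈ sfam [e] := mem_sfam.mpr ⟨e, by simp, rfl⟩
    rw [hF, Finset.mem_singleton] at h3
    exact h3
  refine ⟨by simp [stot, h2], ?_⟩
  rw [← hp.length_eq]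
  simp

/-- A forced step. -/
theorem rep_forced {s : List (ℕ × ℕ)} {N : ℕ} {F F' : Finset (List α)} (h : Rep w s N F)
    (hs : GreedyStep F F') {a b la lb k : ℕ} (ha : (a, la) ∈ s) (hb : (b, lb) ∈ s) (hab : a ≠ b)
    (hk : ∃ o : List α, o <:+ w la ∧ o <+: w b ∧ o.length = k)
    (hle : ∀ o : List α, o <:+ w la → o <+: w b → o.length ≤ k)
    (hlt : ∀ p ∈ s, ∀ q ∈ s, p.1 ≠ q.1 → ¬ (p.1 = a ∧ q.1 = b) → ∀ o : List α, o <:+ w p.2 →
      o <+: w q.1 → o.length < k) :
    ∃ N', N = N' + k ∧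
      Rep w ((a, lb) :: s.filter (fun p => !(Nat.beq p.1 a) && !(Nat.beq p.1 b))) N' F' := by
  have hnd := h.nodup
  obtain ⟨p, q, rest, o, hp, hpq, h1, h2, hmax, N', hN, hR⟩ := rep_step h hs
  have hps : p ∈ s := hp.mem_iff.mpr (by simp)
  have hqs : q ∈ s := hp.mem_iff.mpr (by simp)
  have hkle : k ≤ o.length := by
    obtain ⟨o1, h3, h4, h5⟩ := hk
    rw [← h5]
    exact hmax _ ha _ hb hab o1 h3 h4
  have hcase : p.1 = a ∧ q.1 = b := by
    by_contra hcon
    have := hlt p hps q hqs hpq hcon o h1 h2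
    omega
  have hpe : p = (a, la) := List.inj_on_of_nodup_map hnd hps ha hcase.1
  have hqe : q = (b, lb) := List.inj_on_of_nodup_map hnd hqs hb hcase.2
  subst hpe hqe
  have hok : o.length = k := le_antisymm (hle o h1 h2) hkle
  refine ⟨N', by rw [hN, hok], ?_⟩
  have hnd2 : (((a, la) :: (b, lb) :: rest).map (fun p => p.1)).Nodup :=
    (hp.map _).nodup_iff.mp hnd
  simp only [List.map_cons, List.nodup_cons, List.mem_cons, not_or] at hnd2
  have hrest : (s.filter (fun p => !(Nat.beq p.1 a) && !(Nat.beq p.1 b))).Perm rest := by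
    refine (hp.filter _).trans ?_
    rw [List.filter_cons_of_neg (by simp), List.filter_cons_of_neg (by simp),
      List.filter_eq_self.mpr]
    intro g hg
    have h5 : g.1 ≠ a := by
      rintro heq
      exact hnd2.1.2 (List.mem_map.mpr ⟨g, hg, heq⟩)
    have h6 : g.1 ≠ b := by
      rintro heq
      exact hnd2.2.1 (List.mem_map.mpr ⟨g, hg, heq⟩)
    have h7 : Nat.beq g.1 a = false := by
      rw [← Bool.not_eq_true, Nat.beq_eq]
      exact h5
    have h8 : Nat.beq g.1 b = false := by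
      rw [← Bool.not_eq_true, Nat.beq_eq]
      exact h6
    rw [h7, h8]
    rfl
  obtain ⟨st, hI, hF, hp3, hN3⟩ := hR
  exact ⟨st, hI, hF, hp3.trans (hrest.symm.cons _), hN3⟩

/-- If all overlaps are at most `k`, every run merges at most `k` letters at every step. -/
theorem low_bound {k : ℕ} {F F1 : Finset (List α)} (h : Relation.ReflTransGen GreedyStep F F1) :
    ∀ {G : List α}, F1 = {G} → ∀ {s : List (ℕ × ℕ)} {N : ℕ}, Rep w s N F →
    (∀ p ∈ s, ∀ q ∈ s, p.1 ≠ q.1 → ∀ o : List α, o <:+ w p.2 → o <+: w q.1 → o.length ≤ k) →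
    N ≤ G.length + (s.length - 1) * k := by
  induction h using Relation.ReflTransGen.head_induction_on with
  | refl =>
    intro G hG s N hR _
    subst hG
    have := rep_singleton hR
    omega
  | head h1 _ ih =>
    intro G hG s N hR hle
    obtain ⟨p, q, rest, o, hp, hpq, h3, h4, -, N', hN, hR'⟩ := rep_step hR h1
    have hps : p ∈ s := hp.mem_iff.mpr (by simp)
    have hqs : q ∈ s := hp.mem_iff.mpr (by simp)
    have hrs : ∀ g ∈ rest, g ∈ s := fun g hg => hp.mem_iff.mpr (by simp [hg])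
    have hnd : ((p :: q :: rest).map (fun p => p.1)).Nodup := (hp.map _).nodup_iff.mp hR.nodup
    simp only [List.map_cons, List.nodup_cons, List.mem_cons, not_or] at hnd
    have hko : o.length ≤ k := hle p hps q hqs hpq o h3 h4
    have h5 := ih hG hR' ?_
    · have h6 : s.length = rest.length + 2 := by rw [hp.length_eq]; simp
      rw [h6]
      simp only [List.length_cons, Nat.add_sub_cancel] at h5
      have h7 : (rest.length + 2 - 1) * k = rest.length * k + k := by
        rw [show rest.length + 2 - 1 = rest.length + 1 by omega, Nat.succ_mul]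
      omega
    · intro g hg g' hg' hgg o' h7 h8
      rcases List.mem_cons.mp hg with rfl | hg
      · rcases List.mem_cons.mp hg' with rfl | hg'
        · exact absurd rfl hgg
        · refine hle q hqs g' (hrs g' hg') ?_ o' h7 h8
          intro heq
          exact hnd.2.1 (List.mem_map.mpr ⟨g', hg', heq.symm⟩)
      · rcases List.mem_cons.mp hg' with rfl | hg'
        · exact hle g (hrs g hg) p hps hgg o' h7 h8
        · exact hle g (hrs g hg) g' (hrs g' hg') hgg o' h7 h8

/-- One forced step of a run that ends with one word. -/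
theorem run_forced {s : List (ℕ × ℕ)} {N : ℕ} {F : Finset (List α)} {G : List α}
    (h : Rep w s N F) (hG : Relation.ReflTransGen GreedyStep F {G}) {a b la lb k : ℕ}
    (ha : (a, la) ∈ s) (hb : (b, lb) ∈ s) (hab : a ≠ b)
    (hk : ∃ o : List α, o <:+ w la ∧ o <+: w b ∧ o.length = k)
    (hle : ∀ o : List α, o <:+ w la → o <+: w b → o.length ≤ k)
    (hlt : ∀ p ∈ s, ∀ q ∈ s, p.1 ≠ q.1 → ¬ (p.1 = a ∧ q.1 = b) → ∀ o : List α, o <:+ w p.2 →
      o <+: w q.1 → o.length < k) :
    ∃ F' N', N = N' + k ∧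
      Rep w ((a, lb) :: s.filter (fun p => !(Nat.beq p.1 a) && !(Nat.beq p.1 b))) N' F' ∧
      Relation.ReflTransGen GreedyStep F' {G} := by
  rcases Relation.ReflTransGen.cases_head hG with h1 | ⟨F', h1, h2⟩
  · exfalso
    subst h1
    obtain ⟨-, h3⟩ := rep_singleton h
    obtain ⟨e, rfl⟩ := List.length_eq_one_iff.mp h3
    rw [List.mem_singleton] at ha hb
    rw [← hb] at ha
    exact hab (congrArg Prod.fst ha)
  · obtain ⟨N', h3, h4⟩ := rep_forced h h1 ha hb hab hk hle hlt
    exact ⟨F', N', h3, h4, h2⟩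

/-- The first state. -/
theorem rep_init {n : ℕ} (hff : ∀ i < n, ∀ j < n, w i <:+: w j → i = j) :
    Rep w ((List.range n).map (fun i => (i, i))) (((List.range n).map (fun i => (w i).length)).sum)
      (((List.range n).map w).toFinset) := by
  refine ⟨(List.range n).map (fun i => (w i, (i, i))), ⟨?_, ?_, ?_, ?_, ?_⟩, ?_, ?_, ?_⟩
  · rw [List.map_map]
    refine (List.nodup_map_iff_inj_on List.nodup_range).mpr ?_
    intro i hi j hj hij
    refine hff i (List.mem_range.mp hi) j (List.mem_range.mp hj) ?_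
    simp only [Function.comp_apply] at hij
    rw [hij]
  · intro e he
    obtain ⟨i, hi, rfl⟩ := List.mem_map.mp he
    exact List.prefix_rfl
  · intro e he
    obtain ⟨i, hi, rfl⟩ := List.mem_map.mp he
    exact List.suffix_rfl
  · intro e he f hf hef hinf
    obtain ⟨i, hi, rfl⟩ := List.mem_map.mp he
    obtain ⟨j, hj, rfl⟩ := List.mem_map.mp hf
    exact hef (by rw [hff i (List.mem_range.mp hi) j (List.mem_range.mp hj) hinf])
  · intro e he f hf hef hinf
    obtain ⟨i, hi, rfl⟩ := List.mem_map.mp he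
    obtain ⟨j, hj, rfl⟩ := List.mem_map.mp hf
    exact hef (by rw [hff i (List.mem_range.mp hi) j (List.mem_range.mp hj) hinf])
  · unfold sfam
    rw [List.map_map]
    rfl
  · rw [List.map_map]
    exact List.Perm.refl _
  · unfold stot
    rw [List.map_map]
    rfl

end Vale.Agent.P333.Link
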