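import Vale.Agent.P333.CE.Check
import Vale.Agent.P333.Link.Core
import Vale.Agent.P333.Main

/-! A checker for greedy runs that only looks at a table of the overlaps of the original words. -/

namespace Vale.Agent.P333.Link

open Vale.Agent.P333 Vale.Agent.P333.Rle

/-- All members of a list satisfy a test. -/
noncomputable def allR {β : Type} (f : β → Bool) (l : List β) : Bool :=
  List.rec (motive := fun _ => Bool) true (fun a _ ih => cond (f a) ih false) l

theorem allR_spec {β : Type} {f : β → Bool} : ∀ {l : List β}, allR f l = true →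
    ∀ x ∈ l, f x = true
  | [], _, x, hx => by simp at hx
  | a :: l, h, x, hx => by
    have h1 : cond (f a) (allR f l) false = true := h
    cases hfa : f a with
    | false => rw [hfa] at h1; simp at h1
    | true =>
      rw [hfa, cond_true] at h1
      rcases List.mem_cons.mp hx with rfl | hx
      · exact hfa
      · exact allR_spec h1 x hx

/-- Some member of a list satisfies a test. -/
noncomputable def anyR {β : Type} (f : β → Bool) (l : List β) : Bool :=
  List.rec (motive := fun _ => Bool) false (fun a _ ih => cond (f a) true ih) l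

theorem anyR_spec {β : Type} {f : β → Bool} : ∀ {l : List β}, anyR f l = true →
    ∃ x ∈ l, f x = true
  | [], h => by exact absurd h (by simp [anyR])
  | a :: l, h => by
    have h1 : cond (f a) true (anyR f l) = true := h
    cases hfa : f a with
    | true => exact ⟨a, by simp, hfa⟩
    | false =>
      rw [hfa, cond_false] at h1
      obtain ⟨x, hx, hfx⟩ := anyR_spec h1
      exact ⟨x, by simp [hx], hfx⟩

/-- Table of bounds of overlaps: `n` words, entries of 25 bits. -/
structure Tab where
  /-- the entries -/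
  T : ℕ
  /-- the number of bits of a row -/
  W : ℕ
  /-- the mask of a row -/
  M : ℕ

/-- A row. -/
def row (t : Tab) (l : ℕ) : ℕ := Nat.land (Nat.shiftRight t.T (Nat.mul t.W l)) t.M

/-- An entry. -/
def val (r i : ℕ) : ℕ := Nat.land (Nat.shiftRight r (Nat.mul 25 i)) 33554431

/-- The test of a row. -/
def rowOK (t : Tab) (i : ℕ) (A : List (ℕ × ℕ)) : ℕ → List (List (ℕ × ℕ)) → Bool
  | _, [] => true
  | j, B :: L => Nat.ble (ovb A B) (val (row t i) j) && ((Nat.beq i j || !(inf A B)) &&
      rowOK t i A (j + 1) L)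

/-- The test of several rows. -/
def rowsOK (t : Tab) (L : List (List (ℕ × ℕ))) : ℕ → List (List (ℕ × ℕ)) → Bool
  | _, [] => true
  | i, A :: L' => (nrm A && rowOK t i A 0 L) && rowsOK t L (i + 1) L'

theorem rowsOK_append {t : Tab} {L : List (List (ℕ × ℕ))} : ∀ {L1 L2 : List (List (ℕ × ℕ))}
    {i j : ℕ}, rowsOK t L i L1 = true → rowsOK t L j L2 = true → i + L1.length = j →
    rowsOK t L i (L1 ++ L2) = true
  | [], L2, i, j, _, h2, h3 => by
    have : i = j := by simpa using h3
    subst this
    exact h2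
  | A :: L1, L2, i, j, h1, h2, h3 => by
    rw [rowsOK, Bool.and_eq_true] at h1
    rw [List.cons_append, rowsOK, Bool.and_eq_true]
    refine ⟨h1.1, rowsOK_append h1.2 h2 ?_⟩
    rw [List.length_cons] at h3
    omega

theorem rowOK_spec {t : Tab} {i : ℕ} {A : List (ℕ × ℕ)} : ∀ {L : List (List (ℕ × ℕ))} {j : ℕ},
    rowOK t i A j L = true → ∀ k (hk : k < L.length),
      ovb A L[k] ≤ val (row t i) (j + k) ∧ (i = j + k ∨ inf A L[k] = false)
  | [], _, _, k, hk => by simp at hk
  | B :: L, j, h, 0, hk => by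
    rw [rowOK, Bool.and_eq_true, Bool.and_eq_true] at h
    obtain ⟨h1, h2, h3⟩ := h
    refine ⟨le_of_ble h1, ?_⟩
    rw [Bool.or_eq_true, Nat.beq_eq, Bool.not_eq_true'] at h2
    exact h2
  | B :: L, j, h, k + 1, hk => by
    rw [rowOK, Bool.and_eq_true, Bool.and_eq_true] at h
    obtain ⟨h1, h2, h3⟩ := h
    have h4 := rowOK_spec h3 k (by simpa using hk)
    have h5 : j + 1 + k = j + (k + 1) := by omega
    rw [h5] at h4
    exact h4

theorem rowsOK_spec {t : Tab} {L : List (List (ℕ × ℕ))} : ∀ {L' : List (List (ℕ × ℕ))} {i : ℕ},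
    rowsOK t L i L' = true → ∀ k (hk : k < L'.length),
      nrm L'[k] = true ∧ rowOK t (i + k) L'[k] 0 L = true
  | [], _, _, k, hk => by simp at hk
  | A :: L', i, h, 0, hk => by
    rw [rowsOK, Bool.and_eq_true, Bool.and_eq_true] at h
    exact h.1
  | A :: L', i, h, k + 1, hk => by
    rw [rowsOK, Bool.and_eq_true, Bool.and_eq_true] at h
    have h4 := rowsOK_spec h.2 k (by simpa using hk)
    have h5 : i + 1 + k = i + (k + 1) := by omega
    rw [h5] at h4
    exact h4

/-- The words. -/
def wd (L : List (List (ℕ × ℕ))) (i : ℕ) : List ℕ := ex (L.getD i [])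

theorem wd_of_ge {L : List (List (ℕ × ℕ))} {i : ℕ} (h : L.length ≤ i) : wd L i = [] := by
  unfold wd
  rw [List.getD_eq_getElem?_getD, List.getElem?_eq_none h]
  rfl

theorem wd_of_lt {L : List (List (ℕ × ℕ))} {i : ℕ} (h : i < L.length) : wd L i = ex L[i] := by
  unfold wd
  rw [List.getD_eq_getElem?_getD, List.getElem?_eq_getElem h]
  rfl

theorem tab_spec {t : Tab} {L : List (List (ℕ × ℕ))} (h : rowsOK t L 0 L = true) (i j : ℕ)
    (o : List ℕ) (h1 : o <:+ wd L i) (h2 : o <+: wd L j) : o.length ≤ val (row t i) j := by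
  rcases Nat.lt_or_ge i L.length with hi | hi
  · rcases Nat.lt_or_ge j L.length with hj | hj
    · rw [wd_of_lt hi] at h1
      rw [wd_of_lt hj] at h2
      obtain ⟨h3, h4⟩ := rowsOK_spec h i hi
      obtain ⟨h5, -⟩ := rowsOK_spec h j hj
      obtain ⟨h6, -⟩ := rowOK_spec h4 j hj
      rw [Nat.zero_add, Nat.zero_add] at h6
      exact (ovb_sound h3 h5 h1 h2).trans h6
    · rw [wd_of_ge hj, List.prefix_nil] at h2
      simp [h2]
  · rw [wd_of_ge hi, List.suffix_nil] at h1
    simp [h1]

theorem ff_spec {t : Tab} {L : List (List (ℕ × ℕ))} (h : rowsOK t L 0 L = true) :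
    ∀ i < L.length, ∀ j < L.length, wd L i <:+: wd L j → i = j := by
  intro i hi j hj hij
  rw [wd_of_lt hi, wd_of_lt hj] at hij
  obtain ⟨h3, h4⟩ := rowsOK_spec h i hi
  obtain ⟨h5, -⟩ := rowsOK_spec h j hj
  obtain ⟨-, h6⟩ := rowOK_spec h4 j hj
  rw [Nat.zero_add, Nat.zero_add] at h6
  rcases h6 with h6 | h6
  · exact h6
  · rw [inf_sound h3 h5 hij] at h6
    simp at h6

/-- A step: the numbers of the first words, the numbers of the last words, and the overlap
minus one. -/
structure Stp where
  /-- first word, left string -/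
  a : ℕ
  /-- first word, right string -/
  b : ℕ
  /-- last word, left string -/
  la : ℕ
  /-- last word, right string -/
  lb : ℕ
  /-- the overlap minus one -/
  k : ℕ

/-- The test of all pairs of a state. -/
noncomputable def pairsOK (t : Tab) (z : Stp) (s : List (ℕ × ℕ)) : Bool :=
  allR (fun p => allR (fun q => cond (Nat.ble (val (row t p.2) q.1) z.k) true
    (cond (Nat.beq p.1 q.1) true
      (cond (Nat.beq p.1 z.a) (cond (Nat.beq q.1 z.b)
        (Nat.ble (val (row t p.2) q.1) (Nat.succ z.k)) false) false))) s) s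

/-- Membership. -/
noncomputable def memP (x y : ℕ) (s : List (ℕ × ℕ)) : Bool :=
  anyR (fun p => cond (Nat.beq p.1 x) (Nat.beq p.2 y) false) s

theorem memP_spec {x y : ℕ} {s : List (ℕ × ℕ)} (h : memP x y s = true) : (x, y) ∈ s := by
  obtain ⟨p, hp, h1⟩ := anyR_spec h
  cases h2 : Nat.beq p.1 x with
  | false => rw [h2] at h1; simp at h1
  | true =>
    rw [h2, cond_true, Nat.beq_eq] at h1
    rw [Nat.beq_eq] at h2
    rw [← h1, ← h2]
    exact hp

/-- The test of one step. -/
noncomputable def stepOK (t : Tab) (L : List (List (ℕ × ℕ))) (z : Stp) (s : List (ℕ × ℕ)) :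
    Bool :=
  cond (memP z.a z.la s) (cond (memP z.b z.lb s) (cond (Nat.beq z.a z.b) false
    (cond (real (L.getD z.la []) (L.getD z.b []) (Nat.succ z.k)) (pairsOK t z s) false))
    false) false

theorem cond_false_eq {a b : Bool} (h : cond a b false = true) : a = true ∧ b = true := by
  cases a <;> cases b <;> simp_all

/-- The next state. -/
def nxt (z : Stp) (s : List (ℕ × ℕ)) : List (ℕ × ℕ) :=
  (z.a, z.lb) :: s.filter (fun p => !(Nat.beq p.1 z.a) && !(Nat.beq p.1 z.b))

theorem stepOK_spec {t : Tab} {L : List (List (ℕ × ℕ))} (hL : rowsOK t L 0 L = true) {z : Stp}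
    {s : List (ℕ × ℕ)} (h : stepOK t L z s = true) {N : ℕ} {F : Finset (List ℕ)} {G : List ℕ}
    (hR : Rep (wd L) s N F) (hG : Relation.ReflTransGen GreedyStep F {G}) :
    ∃ F' N', N = N' + (z.k + 1) ∧ Rep (wd L) (nxt z s) N' F' ∧
      Relation.ReflTransGen GreedyStep F' {G} := by
  obtain ⟨h1, h⟩ := cond_false_eq h
  obtain ⟨h2, h⟩ := cond_false_eq h
  have h3 : Nat.beq z.a z.b = false := by
    cases hc : Nat.beq z.a z.b with
    | false => rfl
    | true => rw [hc, cond_true] at h; simp at h
  rw [h3, cond_false] at h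
  obtain ⟨h4, h5⟩ := cond_false_eq h
  have hab : z.a ≠ z.b := by
    rintro heq
    rw [heq, Nat.beq_refl] at h3
    simp at h3
  have hpairs : ∀ p ∈ s, ∀ q ∈ s, val (row t p.2) q.1 ≤ z.k ∨ p.1 = q.1 ∨
      (p.1 = z.a ∧ q.1 = z.b ∧ val (row t p.2) q.1 ≤ z.k + 1) := by
    intro p hp q hq
    have h6 := allR_spec (allR_spec h5 p hp) q hq
    cases h7 : Nat.ble (val (row t p.2) q.1) z.k with
    | true => exact Or.inl (le_of_ble h7)
    | false =>
      rw [h7, cond_false] at h6
      cases h8 : Nat.beq p.1 q.1 with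
      | true => rw [Nat.beq_eq] at h8; exact Or.inr (Or.inl h8)
      | false =>
        rw [h8, cond_false] at h6
        obtain ⟨h9, h10⟩ := cond_false_eq h6
        obtain ⟨h11, h12⟩ := cond_false_eq h10
        rw [Nat.beq_eq] at h9 h11
        exact Or.inr (Or.inr ⟨h9, h11, le_of_ble h12⟩)
  refine run_forced hR hG (memP_spec h1) (memP_spec h2) hab ?_ ?_ ?_
  · exact real_sound h4
  · intro o h6 h7
    have h8 := tab_spec hL z.la z.b o h6 h7
    rcases hpairs _ (memP_spec h1) _ (memP_spec h2) with h9 | h9 | h9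
    · simp only at h9
      omega
    · exact absurd h9 hab
    · have := h9.2.2
      simp only at this
      omega
  · intro p hp q hq hpq hne o h6 h7
    have h8 := tab_spec hL p.2 q.1 o h6 h7
    rcases hpairs _ hp _ hq with h9 | h9 | h9
    · omega
    · exact absurd h9 hpq
    · exact absurd ⟨h9.1, h9.2.1⟩ hne

/-- Equality of states. -/
def eqs : List (ℕ × ℕ) → List (ℕ × ℕ) → Bool := eqr

/-- Several steps, from a state to a state. -/
noncomputable def runTo (t : Tab) (L : List (List (ℕ × ℕ))) (s' : List (ℕ × ℕ)) :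
    List Stp → List (ℕ × ℕ) → Bool
  | [], s => eqr s s'
  | z :: Z, s => cond (stepOK t L z s) (runTo t L s' Z (nxt z s)) false

/-- The sum of the overlaps. -/
def sumK : List Stp → ℕ
  | [] => 0
  | z :: Z => (z.k + 1) + sumK Z

theorem runTo_spec {t : Tab} {L : List (List (ℕ × ℕ))} (hL : rowsOK t L 0 L = true)
    {s' : List (ℕ × ℕ)} {G : List ℕ} : ∀ {Z : List Stp} {s : List (ℕ × ℕ)},
    runTo t L s' Z s = true → ∀ {N : ℕ} {F : Finset (List ℕ)}, Rep (wd L) s N F →
    Relation.ReflTransGen GreedyStep F {G} →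
    ∃ F' N', N = N' + sumK Z ∧ Rep (wd L) s' N' F' ∧ Relation.ReflTransGen GreedyStep F' {G}
  | [], s, h, N, F, hR, hG => by
    have : s = s' := eqr_sound h
    subst this
    exact ⟨F, N, rfl, hR, hG⟩
  | z :: Z, s, h, N, F, hR, hG => by
    obtain ⟨h1, h2⟩ := cond_false_eq h
    obtain ⟨F1, N1, h3, h4, h5⟩ := stepOK_spec hL h1 hR hG
    obtain ⟨F2, N2, h6, h7, h8⟩ := runTo_spec hL h2 h4 h5
    exact ⟨F2, N2, by rw [h3, h6, sumK]; omega, h7, h8⟩

/-- All overlaps of the state are at most `k`. -/
noncomputable def lowOK (t : Tab) (k : ℕ) (s : List (ℕ × ℕ)) : Bool :=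
  allR (fun p => allR (fun q => cond (Nat.ble (val (row t p.2) q.1) k) true
    (Nat.beq p.1 q.1)) s) s

theorem lowOK_spec {t : Tab} {L : List (List (ℕ × ℕ))} (hL : rowsOK t L 0 L = true) {k : ℕ}
    {s : List (ℕ × ℕ)} (h : lowOK t k s = true) {N : ℕ} {F : Finset (List ℕ)} {G : List ℕ}
    (hR : Rep (wd L) s N F) (hG : Relation.ReflTransGen GreedyStep F {G}) :
    N ≤ G.length + (s.length - 1) * k := by
  refine low_bound hG rfl hR ?_
  intro p hp q hq hpq o h6 h7
  have h8 := tab_spec hL p.2 q.1 o h6 h7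
  have h9 := allR_spec (allR_spec h p hp) q hq
  cases h10 : Nat.ble (val (row t p.2) q.1) k with
  | true => exact h8.trans (le_of_ble h10)
  | false =>
    rw [h10, cond_false, Nat.beq_eq] at h9
    exact absurd h9 hpq

theorem map_getD (L : List (List (ℕ × ℕ))) : (List.range L.length).map (wd L) = L.map ex := by
  apply List.ext_getElem
  · simp
  · intro i h1 h2
    rw [List.getElem_map, List.getElem_map, List.getElem_range]
    exact wd_of_lt (by simpa using h2)

theorem tot_sum : ∀ (L : List (List (ℕ × ℕ))),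
    ((L.map ex).map (fun x => x.length)).sum = tot L
  | [] => rfl
  | A :: L => by
    rw [List.map_cons, List.map_cons, List.sum_cons, tot_sum L, tot, length_ex]

/-- The initial state. -/
theorem rep_start {t : Tab} {L : List (List (ℕ × ℕ))} (hL : rowsOK t L 0 L = true) :
    Rep (wd L) ((List.range L.length).map (fun i => (i, i))) (tot L) (fam L) := by
  have h := rep_init (w := wd L) (n := L.length) (ff_spec hL)
  rw [map_getD] at h
  have h2 : ((List.range L.length).map (fun i => (wd L i).length)).sum = tot L := by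
    rw [← tot_sum L, ← map_getD, List.map_map]
    rfl
  rw [h2] at h
  exact h

theorem reduce_start {t : Tab} {L : List (List (ℕ × ℕ))} (hL : rowsOK t L 0 L = true) :
    reduceFamily (fam L) = fam L := by
  unfold reduceFamily
  rw [Finset.filter_eq_self]
  intro s hs u hu hsu
  have h1 : fam L = ((List.range L.length).map (wd L)).toFinset := by rw [map_getD]; rfl
  rw [h1, List.mem_toFinset, List.mem_map] at hs hu
  obtain ⟨i, hi, rfl⟩ := hs
  obtain ⟨j, hj, rfl⟩ := hu
  rw [ff_spec hL i (List.mem_range.mp hi) j (List.mem_range.mp hj) hsu]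

theorem ex_lt : ∀ {A : List (ℕ × ℕ)}, A.all (fun a => Nat.blt a.1 8) = true → ∀ a ∈ ex A, a < 8
  | [], _, a, ha => by simp [ex] at ha
  | b :: A, h, a, ha => by
    rw [List.all_cons, Bool.and_eq_true] at h
    unfold ex at ha
    rcases List.mem_append.mp ha with h1 | h1
    · rw [List.eq_of_mem_replicate h1]
      exact le_of_ble h.1
    · exact ex_lt h.2 a h1

end Vale.Agent.P333.Link
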