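import Vale.Agent.P333.Link.Data

/-! Checks of the superstring. -/

namespace Vale.Agent.P333.Link.Dat

open Vale.Agent.P333 Vale.Agent.P333.Rle Vale.Agent.P333.Link

theorem c0 : covers T L0 P0 = true := by decide +kernel

theorem c1 : covers T L1 P1 = true := by decide +kernel

theorem c2 : covers T L2 P2 = true := by decide +kernel

theorem c3 : covers T L3 P3 = true := by decide +kernel

theorem c4 : covers T L4 P4 = true := by decide +kernel

theorem c5 : covers T L5 P5 = true := by decide +kernel

theorem c6 : covers T L6 P6 = true := by decide +kernel

theorem c7 : covers T L7 P7 = true := by decide +kernel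

theorem c8 : covers T L8 P8 = true := by decide +kernel

theorem c9 : covers T L9 P9 = true := by decide +kernel

theorem c10 : covers T L10 P10 = true := by decide +kernel

theorem tot_eq : tot LF = 95206749 := by decide +kernel

theorem lenT : len T = 18580603 := by decide +kernel

theorem let8 : T.all (fun a => Nat.blt a.1 8) = true := by decide +kernel

end Vale.Agent.P333.Link.Dat
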