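import Vale.Agent.P333.Link.Data

/-! Checks of the greedy run. -/

namespace Vale.Agent.P333.Link.Dat

open Vale.Agent.P333 Vale.Agent.P333.Rle Vale.Agent.P333.Link

theorem g0 : runTo t LF s1 Z0 s0 = true := by decide +kernel

theorem g1 : runTo t LF s2 Z1 s1 = true := by decide +kernel

theorem g2 : runTo t LF s3 Z2 s2 = true := by decide +kernel

theorem g3 : runTo t LF s4 Z3 s3 = true := by decide +kernel

theorem g4 : runTo t LF s5 Z4 s4 = true := by decide +kernel

theorem g5 : runTo t LF s6 Z5 s5 = true := by decide +kernel

theorem g6 : runTo t LF s7 Z6 s6 = true := by decide +kernel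

theorem g7 : runTo t LF s8 Z7 s7 = true := by decide +kernel

theorem g8 : runTo t LF s9 Z8 s8 = true := by decide +kernel

theorem g9 : runTo t LF s10 Z9 s9 = true := by decide +kernel

theorem low : lowOK t 136 s10 = true := by decide +kernel

end Vale.Agent.P333.Link.Dat
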