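import Vale.Agent.P333.Link.RowsC
import Vale.Agent.P333.Link.RunC
import Vale.Agent.P333.Link.CovC
import Vale.Agent.P333.Lift

/-! Every greedy output on the family is long. -/

namespace Vale.Agent.P333.Link.Dat

open Vale.Agent.P333 Vale.Agent.P333.Rle Vale.Agent.P333.Link

theorem rows : rowsOK t LF 0 LF = true := by
  have h : rowsOK t LF 0 L = true := rowsOK_append r0 (rowsOK_append r1 (rowsOK_append r2 (rowsOK_append r3 (rowsOK_append r4 (rowsOK_append r5 (rowsOK_append r6 (rowsOK_append r7 (rowsOK_append r8 (rowsOK_append r9 r10 rfl) rfl) rfl) rfl) rfl) rfl) rfl) rfl) rfl) rfl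
  rw [LF_eq] at h
  exact h

theorem start : (List.range LF.length).map (fun i => (i, i)) = s0 := by decide +kernel

theorem cov : ∀ A ∈ LF, ex A <:+: ex T := by
  intro A hA
  rw [← LF_eq, L] at hA
  simp only [List.mem_append] at hA
  rcases hA with hA | hA | hA | hA | hA | hA | hA | hA | hA | hA | hA
  · exact covers_sound c0 A hA
  · exact covers_sound c1 A hA
  · exact covers_sound c2 A hA
  · exact covers_sound c3 A hA
  · exact covers_sound c4 A hA
  · exact covers_sound c5 A hA
  · exact covers_sound c6 A hA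
  · exact covers_sound c7 A hA
  · exact covers_sound c8 A hA
  · exact covers_sound c9 A hA
  · exact covers_sound c10 A hA

theorem k0 : sumK Z0 = 3667007 := by decide +kernel

theorem k1 : sumK Z1 = 3655709 := by decide +kernel

theorem k2 : sumK Z2 = 4556286 := by decide +kernel

theorem k3 : sumK Z3 = 4542025 := by decide +kernel

theorem k4 : sumK Z4 = 5430544 := by decide +kernel

theorem k5 : sumK Z5 = 3744030 := by decide +kernel

theorem k6 : sumK Z6 = 4272460 := by decide +kernel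

theorem k7 : sumK Z7 = 5478895 := by decide +kernel

theorem k8 : sumK Z8 = 7885392 := by decide +kernel

theorem k9 : sumK Z9 = 11531068 := by decide +kernel

theorem main {G : List ℕ} (hG : IsGreedyOutput (fam LF) G) : 40440205 ≤ G.length := by
  unfold IsGreedyOutput at hG
  rw [reduce_start rows] at hG
  have h0 := rep_start rows
  rw [tot_eq, start] at h0
  obtain ⟨F1, N1, e1, R1, G1⟩ := runTo_spec rows g0 h0 hG
  obtain ⟨F2, N2, e2, R2, G2⟩ := runTo_spec rows g1 R1 G1
  obtain ⟨F3, N3, e3, R3, G3⟩ := runTo_spec rows g2 R2 G2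
  obtain ⟨F4, N4, e4, R4, G4⟩ := runTo_spec rows g3 R3 G3
  obtain ⟨F5, N5, e5, R5, G5⟩ := runTo_spec rows g4 R4 G4
  obtain ⟨F6, N6, e6, R6, G6⟩ := runTo_spec rows g5 R5 G5
  obtain ⟨F7, N7, e7, R7, G7⟩ := runTo_spec rows g6 R6 G6
  obtain ⟨F8, N8, e8, R8, G8⟩ := runTo_spec rows g7 R7 G7
  obtain ⟨F9, N9, e9, R9, G9⟩ := runTo_spec rows g8 R8 G8
  obtain ⟨F10, N10, e10, R10, G10⟩ := runTo_spec rows g9 R9 G9
  have hl := lowOK_spec rows low R10 G10
  have hs : s10.length = 24 := rfl
  rw [hs] at hl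
  rw [k0] at e1
  rw [k1] at e2
  rw [k2] at e3
  rw [k3] at e4
  rw [k4] at e5
  rw [k5] at e6
  rw [k6] at e7
  rw [k7] at e8
  rw [k8] at e9
  rw [k9] at e10
  omega

theorem final {α : Type*} [DecidableEq α] [Nontrivial α] (N : ℕ) :
    ∃ (S : Finset (List α)) (T : List α),
      (∀ s ∈ S, s <:+: T) ∧
      (∀ U : List α, (∀ s ∈ S, s <:+: U) → N ≤ U.length) ∧
      (∃ G : List α, IsGreedyOutput S G) ∧
      ∀ G : List α, IsGreedyOutput S G →
        2176 * T.length ≤ 1000 * G.length ∧ 2 * T.length + N < G.length := by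
  have hcov : ∀ s ∈ fam LF, s <:+: ex T := by
    intro s hs
    obtain ⟨A, hA, rfl⟩ : ∃ A ∈ LF, ex A = s := by simpa [fam] using hs
    exact cov A hA
  have hT8 : ∀ a ∈ ex T, a < 8 := ex_lt let8
  have h8 : ∀ s ∈ fam LF, ∀ a ∈ s, a < 8 := fun s hs a ha => hT8 a ((hcov s hs).subset ha)
  have hne : ∃ s ∈ fam LF, s ≠ [] := by
    refine ⟨ex (LF.getD 0 []), ?_, ?_⟩
    · simp [fam, LF]
    · intro h
      have h2 := congrArg List.length h
      rw [length_ex] at h2
      exact absurd h2 (by decide)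
  obtain ⟨s, hs, hs2⟩ := hne
  refine Lift.lift h8 hcov ⟨s, hs, hs2⟩ (exists_output _ ⟨s, hs⟩) ?_ (by norm_num) N
  intro G hG
  have h1 := main hG
  rw [length_ex, lenT]
  omega

end Vale.Agent.P333.Link.Dat
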