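import Vale.Agent.P333.Link.Data

/-! Checks of the rows of the table. -/

namespace Vale.Agent.P333.Link.Dat

open Vale.Agent.P333 Vale.Agent.P333.Rle Vale.Agent.P333.Link

theorem r0 : rowsOK t LF 0 L0 = true := by decide +kernel

theorem r1 : rowsOK t LF 10 L1 = true := by decide +kernel

theorem r2 : rowsOK t LF 20 L2 = true := by decide +kernel

theorem r3 : rowsOK t LF 30 L3 = true := by decide +kernel

theorem r4 : rowsOK t LF 40 L4 = true := by decide +kernel

theorem r5 : rowsOK t LF 50 L5 = true := by decide +kernel

theorem r6 : rowsOK t LF 60 L6 = true := by decide +kernel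

theorem r7 : rowsOK t LF 70 L7 = true := by decide +kernel

theorem r8 : rowsOK t LF 80 L8 = true := by decide +kernel

theorem r9 : rowsOK t LF 90 L9 = true := by decide +kernel

theorem r10 : rowsOK t LF 100 L10 = true := by decide +kernel

end Vale.Agent.P333.Link.Dat
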